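import Vale.Agent.Lib.P225.Warp

/-!
# P225: radial rigidity on rotationally symmetric manifolds with nonnegative Ricci curvature

On `M = (ℝⁿ, dr² + h(r)² g_{S^{n-1}})` a separated function `u = f(r) Y(θ)`, where `Y` is an
eigenfunction of the Laplacian of the unit sphere with `Δ_S Y = -lam Y`, is harmonic if and only if
`f'' + (n - 1) (h'/h) f' = lam f / h²` on `(0, ∞)`.  If `Ric ≥ 0` then `h'' ≤ 0`.
The theorem below shows that a solution `f` which is regular at the pole and grows at most like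
`r^k` vanishes identically as soon as `lam > k (k + n - 2)`; so only the spherical harmonics of
degree at most `k` can occur, exactly as in Euclidean space.
-/

namespace Vale.Agent.Results.P225.RadialRigidity

open Vale.Agent.Lib.P225

/-- **Main result.**  Let `n ≥ 2`, `k ≥ 0` and `lam > k (k + n - 2)`.  Let `h` be `C²` with
`h 0 = 0`, `h' 0 = 1`, `h > 0` and `h'' ≤ 0` on `(0, ∞)`.  If `f` is `C²` on `(0, ∞)`, solves
`f'' + (n - 1) (h'/h) f' = lam f / h²` there, `f` and `f'` are bounded on `(0, 1]`, and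
`|f r| ≤ C (1 + r)^k` for `r ≥ 1`, then `f = 0` on `(0, ∞)`. -/
theorem result : ∀ (n k : ℕ) (lam : ℝ) (h f : ℝ → ℝ), 2 ≤ n →
    ContDiff ℝ 2 h → h 0 = 0 → deriv h 0 = 1 → (∀ r, 0 < r → 0 < h r) →
    (∀ r, 0 < r → deriv (deriv h) r ≤ 0) →
    ContDiffOn ℝ 2 f (Set.Ioi 0) →
    (∀ r, 0 < r → deriv (deriv f) r + ((n : ℝ) - 1) * (deriv h r / h r) * deriv f r
      = lam * f r / (h r) ^ 2) →
    (∃ M, ∀ r, 0 < r → r ≤ 1 → |f r| ≤ M ∧ |deriv f r| ≤ M) →
    (∃ C, ∀ r, 1 ≤ r → |f r| ≤ C * (1 + r) ^ k) →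
    (k : ℝ) * (k + n - 2) < lam →
    ∀ r, 0 < r → f r = 0 := by
  intro n k lam h f hn hC h0 hd0 hpos hconc hf hode hbd hgrowth hlam
  exact radial_rigidity_deriv n k lam h f hn hC h0 hd0 hpos hconc hf hode hbd hgrowth hlam

end Vale.Agent.Results.P225.RadialRigidity
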