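import Vale.Agent.Lib.P225.Euclid

/-!
# P225: Yau's dimension comparison on rotationally symmetric manifolds, sharp form

Setting as in `RotSymYau`: `M = (ℝⁿ, dr² + h(r)² g_{S^{n-1}})` in polar coordinates `x = r θ`, whose
Laplace–Beltrami operator is `warpedLaplacian h`, and `Ric ≥ 0` exactly when `h'' ≤ 0` on `(0, ∞)`
(given `h(0) = 0`, `h'(0) = 1`, `h > 0`).  The geodesic sphere of radius `ρ` around the pole is a
round sphere of radius `h(ρ)`; the ratio `h(ρ)/ρ ≤ 1` is nonincreasing in `ρ`.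

`polyGrowthHarmonicReal n h d` (real `d`) and `polyGrowthHarmonic n h k` (integer `k`) are the
spaces of `C²` functions `u` on `ℝⁿ` with `warpedLaplacian h u = 0` away from the origin and
`|u(x)| ≤ C (1 + ‖x‖)^d`, respectively `C (1 + ‖x‖)^k`.

The theorem has two parts.

* For every real `d ≥ 0` and every `ρ > 0`, the space of harmonic functions of growth order `d`
  has dimension at most `C(n+m-1, n-1) + C(n+m-2, n-1)` with `m = ⌊(h(ρ)/ρ) d⌋`, the dimension of
  the space of harmonic polynomials of degree at most `m` on `ℝⁿ`; and `h(ρ)/ρ ≤ 1`.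
* For every integer `k ≥ 1`, the dimension of the space of harmonic functions of growth order `k`
  equals the Euclidean value `C(n+k-1, k) + C(n+k-2, k-1)` if and only if `h(r) = r` for all
  `r > 0`, that is, if and only if the metric is the Euclidean one.
-/

namespace Vale.Agent.Results.P225.RotSymSharp

open Vale.Agent.Lib.P225

/-- **Main result.**  Let `n ≥ 2` and let `h` be `C²` with `h 0 = 0`, `h' 0 = 1`, `h > 0` and
`h'' ≤ 0` on `(0, ∞)`.  Then:
(1) for all real `d ≥ 0` and `ρ > 0`, `h ρ / ρ ≤ 1` and the space of `C²` functions on `ℝⁿ` that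
are harmonic for the metric `dr² + h(r)² g_{S^{n-1}}` and bounded by `C (1 + ‖x‖)^d` is finite
dimensional, of dimension at most `C(n+m-1, n-1) + C(n+m-2, n-1)` where `m = ⌊(h ρ / ρ) d⌋`;
(2) for every integer `k ≥ 1`, the dimension of the space of such functions bounded by
`C (1 + ‖x‖)^k` equals `C(n+k-1, k) + C(n+k-2, k-1)` if and only if `h r = r` for all `r > 0`. -/
theorem result : ∀ (n : ℕ) (h : ℝ → ℝ), 2 ≤ n →
    ContDiff ℝ 2 h → h 0 = 0 → deriv h 0 = 1 → (∀ r, 0 < r → 0 < h r) →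
    (∀ r, 0 < r → deriv (deriv h) r ≤ 0) →
    (∀ d ρ : ℝ, 0 ≤ d → 0 < ρ →
      h ρ / ρ ≤ 1 ∧
      Module.Finite ℝ (Submodule.span ℝ (polyGrowthHarmonicReal n h d)) ∧
      Module.finrank ℝ (Submodule.span ℝ (polyGrowthHarmonicReal n h d)) ≤
        (n + ⌊h ρ / ρ * d⌋₊ - 1).choose (n - 1) + (n + ⌊h ρ / ρ * d⌋₊ - 2).choose (n - 1)) ∧
    (∀ k : ℕ, 1 ≤ k →
      (Module.finrank ℝ (Submodule.span ℝ (polyGrowthHarmonic n h k)) =
        (n + k - 1).choose k + (n + k - 2).choose (k - 1) ↔ ∀ r, 0 < r → h r = r)) := by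
  intro n h hn hC h0 hd0 hpos hconc
  refine ⟨?_, ?_⟩
  · intro d ρ hd hρ
    refine ⟨?_, ?_⟩
    · rw [div_le_one hρ]
      exact (warp_bounds h hC h0 hd0 hconc).2 ρ hρ
    · rw [span_polyGrowthHarmonicReal]
      exact harm_finrank_angle hn d hd h hC h0 hd0 hpos hconc ρ hρ
  · intro k hk
    exact harm_finrank_eq_iff hn k hk h hC h0 hd0 hpos hconc

end Vale.Agent.Results.P225.RotSymSharp
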