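import Vale.Agent.Lib.P225.Dim

/-!
# P225: Yau's dimension comparison on rotationally symmetric manifolds

Let `M = (ℝⁿ, g)` with `g = dr² + h(r)² g_{S^{n-1}}` in polar coordinates `x = r θ` around the
origin, so that the distance from the origin is `r = ‖x‖`.  The Laplace–Beltrami operator of `g`
is `u_rr + (n-1) (h'/h) u_r + h⁻² Δ_S u`, where `Δ_S` is the Laplacian of the unit sphere acting in
the angular variable; in Euclidean coordinates `Δ_S u = r² (Δu - u_rr - (n-1) r⁻¹ u_r)` with `Δ`
the Euclidean Laplacian.  This is `warpedLaplacian h u`.  The metric has `Ric ≥ 0` exactly when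
`h'' ≤ 0` on `(0, ∞)` (given `h(0) = 0`, `h'(0) = 1`, `h > 0`).

`polyGrowthHarmonic n h k` is the set of `C²` functions `u` on `ℝⁿ` with `warpedLaplacian h u = 0`
away from the origin and `|u(x)| ≤ C (1 + ‖x‖)^k`; this is the space `H_k(M, g)` of the problem.

The theorem: this space is finite dimensional, of dimension at most
`C(n+k-1, k) + C(n+k-2, k-1) = h_k(ℝⁿ)`, for every `n ≥ 2` and `k ≥ 1`.
-/

namespace Vale.Agent.Results.P225.RotSymYau

open Vale.Agent.Lib.P225

/-- **Main result.**  Let `n ≥ 2`, `k ≥ 1`, and let `h` be `C²` with `h 0 = 0`, `h' 0 = 1`,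
`h > 0` and `h'' ≤ 0` on `(0, ∞)`.  Then the real vector space of `C²` functions on `ℝⁿ` that are
harmonic for the metric `dr² + h(r)² g_{S^{n-1}}` and bounded by `C (1 + ‖x‖)^k` is finite
dimensional, of dimension at most `C(n+k-1, k) + C(n+k-2, k-1)`, the dimension of the space of
harmonic polynomials of degree at most `k` on `ℝⁿ`. -/
theorem result : ∀ (n k : ℕ) (h : ℝ → ℝ), 2 ≤ n → 1 ≤ k →
    ContDiff ℝ 2 h → h 0 = 0 → deriv h 0 = 1 → (∀ r, 0 < r → 0 < h r) →
    (∀ r, 0 < r → deriv (deriv h) r ≤ 0) →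
    Module.Finite ℝ (Submodule.span ℝ (polyGrowthHarmonic n h k)) ∧
      Module.finrank ℝ (Submodule.span ℝ (polyGrowthHarmonic n h k)) ≤
        (n + k - 1).choose k + (n + k - 2).choose (k - 1) := by
  intro n k h hn hk hC h0 hd0 hpos hconc
  rw [span_polyGrowthHarmonic]
  exact harm_finrank hn k hk h hC h0 hd0 hpos hconc

end Vale.Agent.Results.P225.RotSymYau
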