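import Vale.Agent.Lib.P225.DimReal

/-!
# P225: Yau's dimension comparison on rotationally symmetric manifolds, real growth orders

Setting as in `RotSymYau`: `M = (ℝⁿ, dr² + h(r)² g_{S^{n-1}})`, whose Laplace–Beltrami operator in
polar coordinates is `warpedLaplacian h`, and `Ric ≥ 0` exactly when `h'' ≤ 0`.

`polyGrowthHarmonicReal n h d` is the set of `C²` functions `u` on `ℝⁿ` with
`warpedLaplacian h u = 0` away from the origin and `|u(x)| ≤ C (1 + ‖x‖)^d`, for a real `d`.

The theorem: for every real `d ≥ 0` this space has dimension at most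
`C(n+k-1, n-1) + C(n+k-2, n-1)` with `k = ⌊d⌋`, which is the dimension of the space of harmonic
polynomials of degree at most `k` on `ℝⁿ` (and equals `C(n+k-1, k) + C(n+k-2, k-1)` for `k ≥ 1`,
and `1` for `k = 0`).
-/

namespace Vale.Agent.Results.P225.RotSymYauReal

open Vale.Agent.Lib.P225

/-- **Main result.**  Let `n ≥ 2`, let `d ≥ 0` be real, and let `h` be `C²` with `h 0 = 0`,
`h' 0 = 1`, `h > 0` and `h'' ≤ 0` on `(0, ∞)`.  Then the real vector space of `C²` functions on
`ℝⁿ` that are harmonic for the metric `dr² + h(r)² g_{S^{n-1}}` and bounded by `C (1 + ‖x‖)^d` is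
finite dimensional, of dimension at most `C(n+k-1, n-1) + C(n+k-2, n-1)` where `k = ⌊d⌋`. -/
theorem result : ∀ (n : ℕ) (d : ℝ) (h : ℝ → ℝ), 2 ≤ n → 0 ≤ d →
    ContDiff ℝ 2 h → h 0 = 0 → deriv h 0 = 1 → (∀ r, 0 < r → 0 < h r) →
    (∀ r, 0 < r → deriv (deriv h) r ≤ 0) →
    Module.Finite ℝ (Submodule.span ℝ (polyGrowthHarmonicReal n h d)) ∧
      Module.finrank ℝ (Submodule.span ℝ (polyGrowthHarmonicReal n h d)) ≤
        (n + ⌊d⌋₊ - 1).choose (n - 1) + (n + ⌊d⌋₊ - 2).choose (n - 1) := by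
  intro n d h hn hd hC h0 hd0 hpos hconc
  rw [span_polyGrowthHarmonicReal]
  exact harm_finrank_real hn d hd h hC h0 hd0 hpos hconc

end Vale.Agent.Results.P225.RotSymYauReal
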